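import Vale.Agent.Lib.P329.ClassFourAll

namespace Vale.Agent.Results.P329.ClassFour

open Vale.Agent.Lib.P329

/-- Every language over a finite alphabet recognized by a finite nilpotent group `G` of class at
most `4` (the term `lowerCentralSeries 4`, that is `γ₅`, is trivial) has generalized star height at
most `1`: for a letter assignment `φ : A → G`, extended to words by taking products, and a set
`S ⊆ G`, the language `{w | φ(w) ∈ S}` has generalized star height at most `1`. -/
theorem result {A G : Type} [Finite A] [Group G] [Finite G]
    (hG : (⊤ : Subgroup G).lowerCentralSeries 4 = ⊥) (φ : A → G) (S : Set G) :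
    HeightLE 1 {w : List A | (w.map φ).prod ∈ S} :=
  heightLE_of_class_four_all hG φ S

end Vale.Agent.Results.P329.ClassFour
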