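import Vale.Agent.Lib.P329.ClassFourAll
import Vale.Agent.Lib.P329.MetaGen
import Vale.Agent.Lib.P329.TileFlow
import Vale.Agent.Lib.P329.CascadeAb
import Vale.Agent.Lib.P329.PlaneFlow
import Vale.Agent.Lib.P329.Glue
import Vale.Agent.Lib.P329.Five
import Vale.Agent.Lib.P329.ReesTwo

namespace Vale.Agent.Results.P329.ClassesUnion

open Vale.Agent.Lib.P329

/-- All classes of finite groups and automata reached, in one statement.

Every language recognized by a finite group `G` through `φ : A → G` has generalized star height at
most one when: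
(a) `G` is nilpotent of class at most `4`;
(b) `G` has a commutative subgroup containing all commutators and all `p`-th powers, `p` prime;
(c) `G` is nilpotent of class below the prime `p`, with commutative commutator subgroup and
`γ₅` of exponent dividing `p`;
(d) `G` has a homomorphism to the symmetric group on three points whose kernel has exponent at most
two;
(e) `G` has a commutative normal subgroup `V` with all letters in `V` or in one coset `V g`.
Next:
(f) the words in which a given word `u` of length at most `4` occurs as a scattered subword a number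
of times congruent to `k` modulo `m` form a language of generalized star height at most one.
For a deterministic automaton `δ` with finite state set, every language recognized by its transition
monoid has generalized star height at most one when:
(g) `δ` has a hub;
(h) every strongly connected component of `δ` has at most three states;
(i) `δ` is a cascade of an automaton with aperiodic transition monoid, a finite commutative group
reading its transitions, and an automaton with aperiodic transition monoid on top;
(j) every strongly connected component of `δ` can be completed to an automaton all of whose languages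
have generalized star height at most one;
(k) `δ` is an automaton with aperiodic transition monoid on top of an automaton all of whose languages
have generalized star height at most one.
Finally, for `m` squarefree and prime to `6`:
(l) if `R` is a ring of characteristic `m` and `φ : A → R` has all products of six elements `φ a - 1`
equal to zero (for instance letters in the unitriangular `6 × 6` matrices over `ZMod m`), every
`{w | φ(w) ∈ S}` has generalized star height at most one;
(m) the same holds for the words in which a given word `u` of length at most `5` occurs as a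
scattered subword a number of times congruent to `k` modulo `m`.
For the Rees zero-matrix semigroup `M⁰[G; I, L; P]` over a finite group `G` (`rzMul`), every language
of nonempty words recognized through a map `φ` to it has generalized star height at most one when:
(n) `G` has nilpotency class at most two, `P` being arbitrary;
(o) all nonzero entries of `P` lie in the second centre `Z₂(G)` and all languages recognized by `G`
have generalized star height at most one. -/
theorem result :
    (∀ (A G : Type) [Finite A] [Group G] [Finite G],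
      (⊤ : Subgroup G).lowerCentralSeries 4 = ⊥ → ∀ (φ : A → G) (S : Set G),
      HeightLE 1 {w : List A | (w.map φ).prod ∈ S}) ∧
    (∀ (A G : Type) [Finite A] [Group G] [Finite G] (p : ℕ), p.Prime → ∀ V : Subgroup G,
      (∀ x ∈ V, ∀ y ∈ V, x * y = y * x) → (∀ g h : G, g * h * g⁻¹ * h⁻¹ ∈ V) →
      (∀ g : G, g ^ p ∈ V) → ∀ (φ : A → G) (S : Set G),
      HeightLE 1 {w : List A | (w.map φ).prod ∈ S}) ∧
    (∀ (A G : Type) [Finite A] [Group G] [Finite G] [Group.IsNilpotent G] (p : ℕ), p.Prime →
      Group.nilpotencyClass G < p → (∀ x ∈ commutator G, ∀ y ∈ commutator G, x * y = y * x) →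
      (∀ g ∈ (⊤ : Subgroup G).lowerCentralSeries 4, g ^ p = 1) → ∀ (φ : A → G) (S : Set G),
      HeightLE 1 {w : List A | (w.map φ).prod ∈ S}) ∧
    (∀ (A G : Type) [Finite A] [Group G] [Finite G] (π : G →* Equiv.Perm (Fin 3)),
      (∀ x, π x = 1 → x * x = 1) → ∀ (φ : A → G) (S : Set G),
      HeightLE 1 {w : List A | (w.map φ).prod ∈ S}) ∧
    (∀ (A G : Type) [Finite A] [Group G] [Finite G] (V : Subgroup G),
      (∀ x ∈ V, ∀ y ∈ V, x * y = y * x) → V.Normal → ∀ (g : G) (φ : A → G),
      (∀ a, φ a ∈ V ∨ ∃ v ∈ V, φ a = v * g) → ∀ S : Set G,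
      HeightLE 1 {w : List A | (w.map φ).prod ∈ S}) ∧
    (∀ (A : Type) [Finite A] [DecidableEq A] (u : List A), u.length ≤ 4 → ∀ m k : ℕ, m ≠ 0 →
      HeightLE 1 {w : List A | w.sublists.count u % m = k}) ∧
    (∀ (A Q : Type) [Finite A] [Finite Q] [DecidableEq Q] (δ : A → Q → Q) (v : Q), IsHub δ v →
      ∀ S : Set (Q → Q), HeightLE 1 {w : List A | (fun x => run δ x w) ∈ S}) ∧
    (∀ (A Q : Type) [Finite A] [Finite Q] (δ : A → Q → Q),
      (∀ q : Q, Nat.card {r // SameComp δ q r} ≤ 3) →
      ∀ S : Set (Q → Q), HeightLE 1 {w : List A | (fun x => run δ x w) ∈ S}) ∧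
    (∀ (A Q V P : Type) [Finite A] [Finite Q] [Finite P] [AddCommGroup V] [Finite V]
      (δ : A → Q → Q), AperiodicAut δ → ∀ (c : A → Q → V) (ε : A × (Q × V) → P → P),
      AperiodicAut ε → ∀ S : Set (((Q × V) × P) → ((Q × V) × P)),
      HeightLE 1 {w : List A | (fun x => run (cascStep δ c ε) x w) ∈ S}) ∧
    (∀ (A Q : Type) [Finite A] [Finite Q] (δ : A → Q → Q),
      (∀ q : Q, ∃ δ' : A → {r // SameComp δ q r} → {r // SameComp δ q r},
        (∀ a x (hx : SameComp δ q (δ a x.1)), δ' a x = ⟨δ a x.1, hx⟩) ∧
        ∀ x y, HeightLE 1 {w : List A | run δ' x w = y}) →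
      ∀ S : Set (Q → Q), HeightLE 1 {w : List A | (fun x => run δ x w) ∈ S}) ∧
    (∀ (A C P : Type) [Finite A] [Finite C] [Finite P] (γ : A → C → C),
      (∀ c c', HeightLE 1 {w : List A | run γ c w = c'}) → ∀ ε : A × C → P → P, AperiodicAut ε →
      ∀ s s' : C × P, HeightLE 1 {w : List A | run (topStep γ ε) s w = s'}) ∧
    (∀ (A R : Type) [Finite A] [Ring R] (m : ℕ), Squarefree m → Nat.Coprime m 6 → CharP R m →
      ∀ φ : A → R, (∀ a b c d e f : A,
        (φ a - 1) * (φ b - 1) * (φ c - 1) * (φ d - 1) * (φ e - 1) * (φ f - 1) = 0) →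
      ∀ S : Set R, HeightLE 1 {w : List A | (w.map φ).prod ∈ S}) ∧
    (∀ (A : Type) [Finite A] [DecidableEq A] (m : ℕ), Squarefree m → Nat.Coprime m 6 →
      ∀ u : List A, u.length ≤ 5 → ∀ k : ℕ,
      HeightLE 1 {w : List A | w.sublists.count u % m = k}) ∧
    (∀ (A I L G : Type) [Finite A] [Finite I] [Finite L] [Group G] [Finite G],
      (⊤ : Subgroup G).lowerCentralSeries 2 = ⊥ → ∀ (P : L → I → Option G)
      (φ : A → Option (I × G × L)) (T : Set (Option (I × G × L))),
      HeightLE 1 {w : List A | w ≠ [] ∧ rzEval P φ w ∈ T}) ∧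
    (∀ (A I L G : Type) [Finite A] [Finite I] [Finite L] [Group G] [Finite G],
      (∀ (B : Type) [Finite B] (f : B → G) (S : Set G),
        HeightLE 1 {x : List B | (x.map f).prod ∈ S}) →
      ∀ P : L → I → Option G, (∀ l j p, P l j = some p → p ∈ Subgroup.upperCentralSeries G 2) →
      ∀ (φ : A → Option (I × G × L)) (T : Set (Option (I × G × L))),
      HeightLE 1 {w : List A | w ≠ [] ∧ rzEval P φ w ∈ T}) :=
  ⟨fun _ _ _ _ _ hG φ S => heightLE_of_class_four_all hG φ S,
    fun _ _ _ _ _ p hp V hV hcomm hpow φ S => heightLE_of_expPrime p hp V hV hcomm hpow φ S,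
    fun _ _ _ _ _ _ p hp hclass hmeta hexp φ S => heightLE_of_meta_prime p hp
      (Subgroup.lowerCentralSeries_eq_bot_iff_nilpotencyClass_le.2 (by omega))
      (by rw [Subgroup.top_lowerCentralSeries_one]; exact hmeta) hexp φ S,
    fun _ _ _ _ _ π h2 φ S => (good_prod_of_sThree π h2 φ).preimage S,
    fun _ _ _ _ _ V hV hN g φ hφ S => heightLE_of_singleCoset V hV hN g φ hφ S,
    fun _ _ _ u hu m k hm => heightLE_subCount_four_all hm u hu k,
    fun _ _ _ _ _ _ _ hv S => hub_transformation hv S,
    fun _ _ _ _ δ h S => heightLE_comp_le_three δ h S,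
    fun _ _ _ _ _ _ _ _ _ _ hδ c _ hε S => heightLE_cascade hδ c hε S,
    fun _ _ _ _ δ h S => heightLE_glue δ h S,
    fun _ _ _ _ _ _ γ hγ _ hε s s' => good_topStep γ hγ hε s s',
    fun _ _ _ _ m hm h6 _ φ h S => heightLE_depthSix hm h6 φ h S,
    fun _ _ _ m hm h6 u hu k => heightLE_subCount_five hm h6 u hu k,
    fun _ _ _ _ _ _ _ _ _ hG P φ T => heightLE_rees P φ hG T,
    fun _ _ _ _ _ _ _ _ _ hG P hP φ T => heightLE_rees_z2 P φ hG hP T⟩

end Vale.Agent.Results.P329.ClassesUnion
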