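import Vale.Agent.Lib.P329.Five

namespace Vale.Agent.Results.P329.DepthSix

open Vale.Agent.Lib.P329

/-- A product of `k` strictly upper triangular matrices vanishes below the `k`-th superdiagonal. -/
theorem strict_prod {n : ℕ} {R : Type} [Ring R] (l : List (Matrix (Fin n) (Fin n) R))
    (hl : ∀ M ∈ l, ∀ i j, j ≤ i → M i j = 0) :
    ∀ i j : Fin n, j.val < i.val + l.length → l.prod i j = 0 := by
  induction l with
  | nil =>
    intro i j h
    simp only [List.length_nil, add_zero] at h
    simp only [List.prod_nil]
    exact Matrix.one_apply_ne (fun e => by subst e; omega)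
  | cons M l ih =>
    intro i j h
    rw [List.prod_cons, Matrix.mul_apply]
    refine Finset.sum_eq_zero (fun k _ => ?_)
    by_cases hk : k ≤ i
    · rw [hl M List.mem_cons_self i k hk, zero_mul]
    · have hk' : i.val < k.val := not_le.1 hk
      rw [ih (fun N hN => hl N (List.mem_cons_of_mem _ hN)) k j (by
        simp only [List.length_cons] at h
        omega), mul_zero]

/-- Let `m` be a squarefree positive integer prime to `6`, for instance a prime at least `5`, and
`A` a finite alphabet.
(1) If `R` is a ring of characteristic `m` and `φ : A → R` is such that all products of six elements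
`φ a - 1` vanish, then for every `S ⊆ R` the language `{w | φ(w) ∈ S}` has generalized star height
at most `1`.
(2) If a group `G` has a faithful multiplicative map `ρ` into such a ring with all products of six
elements `ρ g - 1` vanishing, then every language recognized by `G` has generalized star height at
most `1`.
(3) This holds for letters sent to unitriangular `6 × 6` matrices over `ZMod m`.
(4) For every word `u` of length at most `5`, the language of words in which `u` occurs as a
scattered subword a number of times congruent to `k` modulo `m` has generalized star height at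
most `1`. -/
theorem result (m : ℕ) (hm : Squarefree m) (h6 : Nat.Coprime m 6) (A : Type) [Finite A] :
    (∀ (R : Type) [Ring R] [CharP R m] (φ : A → R),
      (∀ a b c d e f : A,
        (φ a - 1) * (φ b - 1) * (φ c - 1) * (φ d - 1) * (φ e - 1) * (φ f - 1) = 0) →
      ∀ S : Set R, HeightLE 1 {w : List A | (w.map φ).prod ∈ S}) ∧
    (∀ (G R : Type) [Group G] [Ring R] [CharP R m] (ρ : G →* R), Function.Injective ρ →
      (∀ a b c d e f : G,
        (ρ a - 1) * (ρ b - 1) * (ρ c - 1) * (ρ d - 1) * (ρ e - 1) * (ρ f - 1) = 0) →
      ∀ (φ : A → G) (S : Set G), HeightLE 1 {w : List A | (w.map φ).prod ∈ S}) ∧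
    (∀ φ : A → Matrix (Fin 6) (Fin 6) (ZMod m),
      (∀ (a : A) (i j : Fin 6), j < i → φ a i j = 0) → (∀ (a : A) (i : Fin 6), φ a i i = 1) →
      ∀ S : Set (Matrix (Fin 6) (Fin 6) (ZMod m)),
        HeightLE 1 {w : List A | (w.map φ).prod ∈ S}) ∧
    (∀ [DecidableEq A] (u : List A), u.length ≤ 5 → ∀ k : ℕ,
      HeightLE 1 {w : List A | w.sublists.count u % m = k}) := by
  refine ⟨fun R _ _ φ h S => heightLE_depthSix hm h6 φ h S, ?_, ?_, fun u hu k =>
    heightLE_subCount_five hm h6 u hu k⟩
  · intro G R _ _ _ ρ hinj h φ S
    have h1 := heightLE_depthSix (m := m) hm h6 (fun a => ρ (φ a))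
      (fun a b c d e f => h _ _ _ _ _ _) (ρ '' S)
    have hset : {w : List A | (w.map φ).prod ∈ S} =
        {w : List A | (w.map fun a => ρ (φ a)).prod ∈ ρ '' S} := by
      ext w
      have : (w.map fun a => ρ (φ a)).prod = ρ (w.map φ).prod := by
        rw [map_list_prod, List.map_map]
        rfl
      simp only [Set.mem_ofPred_eq, this, hinj.mem_set_image]
    rw [hset]
    exact h1
  · intro φ h0 h1 S
    refine heightLE_depthSix hm h6 φ ?_ S
    intro a b c d e f
    have hs : ∀ x : A, ∀ i j : Fin 6, j ≤ i → (φ x - 1) i j = 0 := by
      intro x i j hij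
      rcases eq_or_lt_of_le hij with rfl | hlt
      · simp [h1 x j]
      · have hne : i ≠ j := (ne_of_lt hlt).symm
        simp [h0 x i j hlt, Matrix.one_apply_ne hne]
    have hp := strict_prod [φ a - 1, φ b - 1, φ c - 1, φ d - 1, φ e - 1, φ f - 1] (by
      intro M hM
      simp only [List.mem_cons, List.not_mem_nil, or_false] at hM
      rcases hM with rfl | rfl | rfl | rfl | rfl | rfl <;> exact hs _)
    ext i j
    have hq := hp i j (by
      have := j.isLt
      simp only [List.length_cons, List.length_nil]
      omega)
    simp only [List.prod_cons, List.prod_nil, mul_one] at hq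
    simpa [mul_assoc] using hq

end Vale.Agent.Results.P329.DepthSix
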