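import Vale.Agent.Lib.P329.ReesTwo

namespace Vale.Agent.Results.P329.ReesClassTwo

open Vale.Agent.Lib.P329

/-- Let `G` be a finite group, `A`, `I`, `L` finite types.  For a sandwich matrix
`P : L → I → Option G` (the value `none` being the zero entry) the Rees zero-matrix semigroup
`M⁰[G; I, L; P]` has elements `some (i, g, l)` and the zero `none`, with
`(i, g, l) (j, h, n) = (i, g p h, n)` if `P l j = some p` and zero otherwise (this is `rzMul`).

(1) If `G` has nilpotency class at most two (the term `lowerCentralSeries 2`, that is `γ₃`, is
trivial): for every sandwich matrix `P`, every map `φ` from `A` to this semigroup and every subset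
`T`, the language of the nonempty words whose value `rzEval P φ w` lies in `T` has generalized star
height at most one.

(2) If `G` has class at most two: for all `e : A → A → G` and every letter `q`, the fibres of the
product `wp e q` of the elements `e x y` along the consecutive letters `x y` of the word `q w` have
generalized star height at most one.

(3) Sandwich entries in the second centre: if all languages recognized by `G` over all finite
alphabets have generalized star height at most one and `P` can be normalized by `u : L → G`,
`v : I → G` so that all nonzero entries `(u l)⁻¹ p (v j)⁻¹` lie in the second centre `Z₂(G)`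
(`Subgroup.upperCentralSeries G 2`), the same holds for the languages recognized by the semigroup,
as in (1).  This covers the Brandt semigroups (`P` the identity matrix).

(4) In particular this holds if `G` has class at most four. -/
theorem result {A I L G : Type} [Finite A] [Finite I] [Finite L] [Group G] [Finite G] :
    ((⊤ : Subgroup G).lowerCentralSeries 2 = ⊥ →
      (∀ (P : L → I → Option G) (φ : A → Option (I × G × L)) (T : Set (Option (I × G × L))),
        HeightLE 1 {w : List A | w ≠ [] ∧ rzEval P φ w ∈ T}) ∧
      (∀ (e : A → A → G) (q : A) (g : G), HeightLE 1 {w : List A | wp e q w = g})) ∧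
    ((∀ (B : Type) [Finite B] (f : B → G) (S : Set G),
        HeightLE 1 {x : List B | (x.map f).prod ∈ S}) →
      ∀ (P : L → I → Option G) (u : L → G) (v : I → G),
      (∀ l j p, P l j = some p → (u l)⁻¹ * p * (v j)⁻¹ ∈ Subgroup.upperCentralSeries G 2) →
      ∀ (φ : A → Option (I × G × L)) (T : Set (Option (I × G × L))),
        HeightLE 1 {w : List A | w ≠ [] ∧ rzEval P φ w ∈ T}) ∧
    ((⊤ : Subgroup G).lowerCentralSeries 4 = ⊥ →
      ∀ (P : L → I → Option G) (u : L → G) (v : I → G),
      (∀ l j p, P l j = some p → (u l)⁻¹ * p * (v j)⁻¹ ∈ Subgroup.upperCentralSeries G 2) →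
      ∀ (φ : A → Option (I × G × L)) (T : Set (Option (I × G × L))),
        HeightLE 1 {w : List A | w ≠ [] ∧ rzEval P φ w ∈ T}) :=
  ⟨fun hG => ⟨fun P φ T => heightLE_rees P φ hG T, fun e q g => good_wp_class_two hG e q g⟩,
    fun hG P u v hP φ T => heightLE_rees_z2_norm P φ hG u v hP T,
    fun hG P u v hP φ T => heightLE_rees_z2_norm P φ
      (fun _ _ f S => heightLE_of_class_four_all hG f S) u v hP T⟩

end Vale.Agent.Results.P329.ReesClassTwo
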