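import Vale.Agent.Lib.P329.Counts

namespace Vale.Agent.Results.P329.SubwordCountsThree

open Vale.Agent.Lib.P329

/-- For a finite alphabet, a word `u` of length at most three, a modulus `n > 0` and a residue `k`,
the language of words in which `u` occurs as a (scattered) subsequence a number of times congruent
to `k` modulo `n` has generalized star height at most one. -/
theorem result {A : Type} [Finite A] [DecidableEq A] (u : List A) (hu : u.length ≤ 3)
    (n k : ℕ) (hn : 0 < n) : HeightLE 1 {w : List A | w.sublists.count u % n = k} :=
  heightLE_subCount u hu n hn k

end Vale.Agent.Results.P329.SubwordCountsThree
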