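import Vale.Agent.Lib.P329.Ridge

namespace Vale.Agent.Results.P329.ZAbelianByExpPrime

open Vale.Agent.Lib.P329

/-- Let `p` be a prime and let `V` be a commutative subgroup of a finite group `G` containing all
commutators and all `p`-th powers of `G`, so that `V` is normal and `G / V` is an elementary abelian
`p`-group.  Every language over a finite alphabet recognized by `G` has generalized star height at
most `1`: for a letter assignment `φ : A → G`, extended to words by taking products, and a set
`S ⊆ G`, the language `{w | φ(w) ∈ S}` has generalized star height at most `1`. -/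
theorem result {A G : Type} [Finite A] [Group G] [Finite G] (p : ℕ) (hp : p.Prime)
    (V : Subgroup G) (hV : ∀ x ∈ V, ∀ y ∈ V, x * y = y * x)
    (hcomm : ∀ g h : G, g * h * g⁻¹ * h⁻¹ ∈ V) (hpow : ∀ g : G, g ^ p ∈ V)
    (φ : A → G) (S : Set G) :
    HeightLE 1 {w : List A | (w.map φ).prod ∈ S} :=
  heightLE_of_expPrime p hp V hV hcomm hpow φ S

end Vale.Agent.Results.P329.ZAbelianByExpPrime
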