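import Vale.Agent.Lib.P329.TileFlow

namespace Vale.Agent.Results.P329.ZAbelianCosetLetters

open Vale.Agent.Lib.P329

/-- Let `V` be a commutative normal subgroup of a finite group `G` and let `g ∈ G`.  For a letter
assignment `φ : A → G` with every `φ a` in `V` or in the coset `V g`, extended to words by taking
products, and every set `S ⊆ G`, the language `{w | φ(w) ∈ S}` has generalized star height at
most `1`. -/
theorem result {A G : Type} [Finite A] [Group G] [Finite G] (V : Subgroup G)
    (hV : ∀ x ∈ V, ∀ y ∈ V, x * y = y * x) (hN : V.Normal) (g : G) (φ : A → G)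
    (hφ : ∀ a, φ a ∈ V ∨ ∃ v ∈ V, φ a = v * g) (S : Set G) :
    HeightLE 1 {w : List A | (w.map φ).prod ∈ S} :=
  heightLE_of_singleCoset V hV hN g φ hφ S

end Vale.Agent.Results.P329.ZAbelianCosetLetters
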