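import Vale.Agent.Lib.P329.PlaneFlow

namespace Vale.Agent.Results.P329.ZAffinePlaneFamily

open Vale.Agent.Lib.P329

/-- Two statements, both proved with automata on the four points of the plane over the field with
two elements.

First: let `δ` be a deterministic automaton over a finite alphabet with at most three states.  Every
language recognized by its transition monoid, i.e. every language
`{w | (transformation of w) ∈ S}`, has generalized star height at most one.

Second: let `G` be a finite group with a homomorphism `π` to the symmetric group on three points
whose kernel has exponent at most two (so `G` has a normal elementary abelian `2`-subgroup with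
quotient embedded in `S₃`; for instance `S₄` with the Klein four-group as kernel, and the wreath
product of `ℤ/2` with `S₃`).  Every language over a finite alphabet recognized by `G` has generalized
star height at most `1`: for a letter assignment `φ : A → G`, extended to words by taking products,
and a set `S ⊆ G`, the language `{w | φ(w) ∈ S}` has generalized star height at most `1`. -/
theorem result :
    (∀ (A Q : Type) [Finite A] [Finite Q], Nat.card Q ≤ 3 → ∀ (δ : A → Q → Q) (S : Set (Q → Q)),
      HeightLE 1 {w : List A | (fun x => run δ x w) ∈ S}) ∧
    (∀ (A G : Type) [Finite A] [Group G] [Finite G] (π : G →* Equiv.Perm (Fin 3)),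
      (∀ x, π x = 1 → x * x = 1) → ∀ (φ : A → G) (S : Set G),
      HeightLE 1 {w : List A | (w.map φ).prod ∈ S}) :=
  ⟨fun _ _ _ _ hQ δ S => heightLE_card_le_three hQ δ S,
    fun _ _ _ _ _ π h2 φ S => (good_prod_of_sThree π h2 φ).preimage S⟩

end Vale.Agent.Results.P329.ZAffinePlaneFamily
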