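import Vale.Agent.Lib.P329.ThreeState

namespace Vale.Agent.Results.P329.ZAllThreeStateAutomata

open Vale.Agent.Lib.P329

/-- Let `δ` be a deterministic automaton over a finite alphabet with at most three states.  Every
language recognized by its transition monoid, i.e. every language `{w | (transformation of w) ∈ S}`,
has generalized star height at most one.  In particular this holds for every language recognized
by the full transformation monoid on three points, or any monoid dividing it. -/
theorem result {A Q : Type} [Finite A] [Finite Q] (hQ : Nat.card Q ≤ 3) (δ : A → Q → Q)
    (S : Set (Q → Q)) : HeightLE 1 {w : List A | (fun x => run δ x w) ∈ S} :=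
  heightLE_card_le_three hQ δ S

end Vale.Agent.Results.P329.ZAllThreeStateAutomata
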