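import Vale.Agent.Lib.P329.CascadeAb

namespace Vale.Agent.Results.P329.ZAperiodicAbelianCascade

open Vale.Agent.Lib.P329

/-- Let `δ` be an automaton with finite state set `Q` and aperiodic transition monoid, let `c` assign
to every transition of `δ` an element of a finite commutative group `V`, and let `ε` be an automaton
with finite state set `P` and aperiodic transition monoid which reads the letter together with the
current state of `δ` and the current value in `V`.  Every language recognized by the transition
monoid of the resulting cascade on `(Q × V) × P`, i.e. every language of the form
`{w | (the transformation of w) ∈ S}`, has generalized star height at most one. -/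
theorem result {A Q V P : Type} [Finite A] [Finite Q] [Finite P] [AddCommGroup V] [Finite V]
    (δ : A → Q → Q) (hδ : AperiodicAut δ) (c : A → Q → V) (ε : A × (Q × V) → P → P)
    (hε : AperiodicAut ε) (S : Set (((Q × V) × P) → ((Q × V) × P))) :
    HeightLE 1 {w : List A | (fun x => run (cascStep δ c ε) x w) ∈ S} :=
  heightLE_cascade hδ c hε S

end Vale.Agent.Results.P329.ZAperiodicAbelianCascade
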