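import Vale.Agent.Lib.P329.ClassFourAll

namespace Vale.Agent.Results.P329.ZDepthFive

open Vale.Agent.Lib.P329

/-- Let `m` be a positive integer and `A` a finite alphabet.
(1) If `R` is a ring of characteristic `m` and `φ : A → R` is such that all products of five
elements `φ a - 1` vanish, then for every `S ⊆ R` the language `{w | φ(w) ∈ S}` has generalized star
height at most `1`; this covers, for instance, all words over unitriangular `5 × 5` matrices over
any commutative ring of characteristic `m`.
(2) If a group `G` has a faithful multiplicative map `ρ` into such a ring with all products of five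
elements `ρ g - 1` vanishing, then every language recognized by `G` has generalized star height at
most `1`.
(3) For every word `u` of length at most `4`, the language of words in which `u` occurs as a
scattered subword a number of times congruent to `k` modulo `m` has generalized star height at
most `1`. -/
theorem result (m : ℕ) (hm : m ≠ 0) (A : Type) [Finite A] :
    (∀ (R : Type) [Ring R] [CharP R m] (φ : A → R),
      (∀ a b c d e : A, (φ a - 1) * (φ b - 1) * (φ c - 1) * (φ d - 1) * (φ e - 1) = 0) →
      ∀ S : Set R, HeightLE 1 {w : List A | (w.map φ).prod ∈ S}) ∧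
    (∀ (G R : Type) [Group G] [Ring R] [CharP R m] (ρ : G →* R), Function.Injective ρ →
      (∀ a b c d e : G, (ρ a - 1) * (ρ b - 1) * (ρ c - 1) * (ρ d - 1) * (ρ e - 1) = 0) →
      ∀ (φ : A → G) (S : Set G), HeightLE 1 {w : List A | (w.map φ).prod ∈ S}) ∧
    (∀ [DecidableEq A] (u : List A), u.length ≤ 4 → ∀ k : ℕ,
      HeightLE 1 {w : List A | w.sublists.count u % m = k}) := by
  haveI : NeZero m := ⟨hm⟩
  refine ⟨fun R _ _ φ h S => heightLE_depthFive_all φ h S, ?_, fun u hu k =>
    heightLE_subCount_four_all hm u hu k⟩
  intro G R _ _ _ ρ hinj h φ S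
  have h1 := heightLE_depthFive_all (m := m) (fun a => ρ (φ a)) (fun a b c d e => h _ _ _ _ _) (ρ '' S)
  have hset : {w : List A | (w.map φ).prod ∈ S} =
      {w : List A | (w.map fun a => ρ (φ a)).prod ∈ ρ '' S} := by
    ext w
    have : (w.map fun a => ρ (φ a)).prod = ρ (w.map φ).prod := by
      rw [map_list_prod, List.map_map]
      rfl
    simp only [Set.mem_setOf_eq, this, hinj.mem_set_image]
  rw [hset]
  exact h1

end Vale.Agent.Results.P329.ZDepthFive
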