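import Vale.Agent.Lib.P329.Hub

namespace Vale.Agent.Results.P329.ZHubMachine

open Vale.Agent.Lib.P329

/-- The hub theorem.  Let `δ` be a complete deterministic automaton over a finite alphabet with
finite state set and let `v` be a state such that the partial transition monoid on the states
other than `v` is aperiodic (`IsHub δ v`).  Then every language recognized by the transition monoid
of `δ`, i.e. every language of the form `{w | (the transformation of w) ∈ S}`, has generalized
star height at most one. -/
theorem result {A Q : Type} [Finite A] [Finite Q] [DecidableEq Q] (δ : A → Q → Q) (v : Q)
    (hv : IsHub δ v) (S : Set (Q → Q)) :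
    HeightLE 1 {w : List A | (fun x => run δ x w) ∈ S} :=
  hub_transformation hv S

end Vale.Agent.Results.P329.ZHubMachine
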