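import Vale.Agent.Lib.P329.MetaGen

namespace Vale.Agent.Results.P329.ZMetabelianPrime

open Vale.Agent.Lib.P329

/-- Let `p` be a prime.  Every language over a finite alphabet recognized by a finite nilpotent group
of class below `p`, whose commutator subgroup is commutative and whose lower central term `γ₅`
(the term `lowerCentralSeries 4`) has exponent dividing `p`, has generalized star height at most
`1`: for a letter assignment `φ : A → G`, extended to words by taking products, and a set `S ⊆ G`,
the language `{w | φ(w) ∈ S}` has generalized star height at most `1`. -/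
theorem result {A G : Type} [Finite A] [Group G] [Finite G] [Group.IsNilpotent G]
    (p : ℕ) (hp : p.Prime) (hclass : Group.nilpotencyClass G < p)
    (hmeta : ∀ x ∈ commutator G, ∀ y ∈ commutator G, x * y = y * x)
    (hexp : ∀ g ∈ (⊤ : Subgroup G).lowerCentralSeries 4, g ^ p = 1)
    (φ : A → G) (S : Set G) :
    HeightLE 1 {w : List A | (w.map φ).prod ∈ S} :=
  heightLE_of_meta_prime p hp
    (Subgroup.lowerCentralSeries_eq_bot_iff_nilpotencyClass_le.2 (by omega))
    (by rw [Subgroup.top_lowerCentralSeries_one]; exact hmeta) hexp φ S

end Vale.Agent.Results.P329.ZMetabelianPrime
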