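import Vale.Agent.Lib.P329.Simple7

namespace Vale.Agent.Results.P329.ZSimpleStar

open Vale.Agent.Lib.P329 Vale.Agent.Lib.P329.Simple

/-- Languages recognized by a finite nonabelian simple group `T` through letters generating `T`.

First part: if `T₀` is a proper subgroup whose coset automaton has the base coset as a hub, then all
these languages have generalized star height at most one.

Second part: if a single language `{w | φ(w) ∈ S}` with `S` nonempty and proper has generalized star
height at most one, then there is a star `X^*` with `X` star free such that the values of `X^*`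
form a subgroup `T₀` whose coset automaton has the base coset as a hub, together with a finite
transitive permutation group `H` carrying the star and mapping onto `T` (see `StarCarrier`).  If
`T₀ = T`, the kernel of `H → T` is transitive; an involution letter forces `T₀ = T`. -/
theorem result {A T : Type} [Finite A] [Group T] [Finite T] [IsSimpleGroup T]
    (hT : ∃ a b : T, a * b ≠ b * a) (φ : A → T) (hφ : Subgroup.closure (Set.range φ) = ⊤) :
    (∀ T₀ : Subgroup T, T₀ ≠ ⊤ → CosetHub φ T₀ →
      ∀ S : Set T, HeightLE 1 {w : List A | (w.map φ).prod ∈ S}) ∧
    (∀ S : Set T, S.Nonempty → S ≠ Set.univ → HeightLE 1 {w : List A | (w.map φ).prod ∈ S} →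
      ∃ (X : Set (List A)) (T₀ : Subgroup T) (O : Type) (_ : Finite O) (S₀ : O) (z : List A)
        (H : Subgroup (Equiv.Perm O)) (π : H →* T) (τ : List A → H),
        HeightLE 0 X ∧ StarCarrier φ X T₀ O S₀ z H π τ) :=
  ⟨fun T₀ hne hhub S => height_of_cosetHub φ T₀ hne hhub S,
    fun S hS1 hS2 h => exists_carrier hT φ hφ S hS1 hS2 h⟩

end Vale.Agent.Results.P329.ZSimpleStar
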